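import Mathlib

namespace Vale.Agent.P216

open Function

/-- Core trick.  If `φ : G → ℤ` takes the value `1`, `K` is a normal subgroup of finite index and
`f ∈ ker φ` is not in `K`, then no finite set `S` has the property that every element of `G` is
conjugate to a power of an element of `S`. -/
theorem core {G : Type*} [Group G] (φ : G →* Multiplicative ℤ) (t : G)
    (ht : φ t = Multiplicative.ofAdd 1) (K : Subgroup G) [K.Normal] [K.FiniteIndex]
    (f : G) (hf : φ f = 1) (hfK : f ∉ K) (S : Finset G) :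
    ∃ g : G, ∀ s ∈ S, ∀ n : ℤ, ¬ IsConj g (s ^ n) := by
  classical
  set ψ : G → ℤ := fun x => Multiplicative.toAdd (φ x) with hψ
  have hψmul : ∀ x y, ψ (x * y) = ψ x + ψ y := by
    intro x y; simp [hψ, map_mul]
  have hψzpow : ∀ (x : G) (n : ℤ), ψ (x ^ n) = n * ψ x := by
    intro x n; simp [hψ, map_zpow]
  have hψt : ψ t = 1 := by simp [hψ, ht]
  have hψf : ψ f = 0 := by simp [hψ, hf]
  set q : ℕ := K.index with hq
  have hq0 : (q : ℤ) ≠ 0 := by
    have : K.index ≠ 0 := Subgroup.FiniteIndex.index_ne_zero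
    exact_mod_cast this
  set B : ℤ := ∏ s ∈ S, (if ψ s = 0 then 1 else ψ s) with hB
  have hB0 : B ≠ 0 := by
    rw [hB, Finset.prod_ne_zero_iff]
    intro s _
    split
    · exact one_ne_zero
    · assumption
  have hpowK : ∀ (x : G) (m : ℤ), x ^ ((q : ℤ) * m) ∈ K := by
    intro x m
    rw [mul_comm, zpow_mul, zpow_natCast]
    exact K.pow_index_mem (x ^ m)
  refine ⟨t ^ ((q : ℤ) * B) * f, ?_⟩
  intro s hs n hconj
  -- compare the images in `ℤ`
  have h1 : φ (t ^ ((q : ℤ) * B) * f) = φ (s ^ n) := by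
    have := φ.map_isConj hconj
    exact isConj_iff_eq.mp this
  have h2 : ψ (t ^ ((q : ℤ) * B) * f) = ψ (s ^ n) := by simp only [hψ, h1]
  rw [hψmul, hψzpow, hψzpow, hψt, hψf] at h2
  have hb : ψ s ≠ 0 := by
    intro h0
    rw [h0] at h2
    simp at h2
    rcases h2 with h | h
    · exact hq0 (by exact_mod_cast h)
    · exact hB0 h
  have hdvd : ψ s ∣ B := by
    have : (if ψ s = 0 then 1 else ψ s) ∣ B := Finset.dvd_prod_of_mem _ hs
    rwa [if_neg hb] at this
  obtain ⟨B', hB'⟩ := hdvd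
  have hn : n = (q : ℤ) * B' := by
    have : n * ψ s = ((q : ℤ) * B') * ψ s := by
      rw [hB'] at h2
      linarith [h2, mul_comm (ψ s) B']
    exact mul_right_cancel₀ hb this
  have hsK : s ^ n ∈ K := by rw [hn]; exact hpowK s B'
  have hgK : t ^ ((q : ℤ) * B) * f ∈ K := by
    obtain ⟨c, hc⟩ := isConj_iff.mp hconj
    have : t ^ ((q : ℤ) * B) * f = c⁻¹ * s ^ n * c⁻¹⁻¹ := by
      rw [← hc]; group
    rw [this]
    exact Subgroup.Normal.conj_mem inferInstance _ hsK _
  have htK : t ^ ((q : ℤ) * B) ∈ K := hpowK t B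
  exact hfK ((Subgroup.mul_mem_cancel_left K htK).mp hgK)

/-- For any `u : G` the powers of `u` lying in a subgroup `H` are the powers of one element of `H`. -/
theorem exists_gen {G : Type*} [Group G] (H : Subgroup G) (u : G) :
    ∃ v : H, ∀ n : ℤ, u ^ n ∈ H → ∃ m : ℤ, u ^ n = (v : G) ^ m := by
  have hcyc : IsCyclic (H.subgroupOf (Subgroup.zpowers u)) := inferInstance
  obtain ⟨w, hw⟩ := hcyc.exists_generator
  refine ⟨⟨(w : Subgroup.zpowers u), w.2⟩, ?_⟩
  intro n hn
  have hmem : (⟨u ^ n, ⟨n, rfl⟩⟩ : Subgroup.zpowers u) ∈ H.subgroupOf (Subgroup.zpowers u) := by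
    rw [Subgroup.mem_subgroupOf]; exact hn
  obtain ⟨m, hm⟩ := Subgroup.mem_zpowers_iff.mp (hw ⟨_, hmem⟩)
  refine ⟨m, ?_⟩
  have := congrArg (fun x : H.subgroupOf (Subgroup.zpowers u) => ((x : Subgroup.zpowers u) : G)) hm
  simpa using this.symm

/-- The covering property passes to subgroups of finite index. -/
theorem descend {G : Type*} [Group G] (H : Subgroup G) [H.FiniteIndex] (S : Finset G)
    (hS : ∀ g : G, ∃ s ∈ S, ∃ n : ℤ, IsConj g (s ^ n)) :
    ∃ S' : Finset H, ∀ h : H, ∃ s ∈ S', ∃ n : ℤ, IsConj h (s ^ n) := by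
  classical
  let _ : Fintype (G ⧸ H) := Subgroup.fintypeQuotientOfFiniteIndex
  set T : Finset G := Finset.univ.image (Quotient.out : G ⧸ H → G) with hT
  choose v hv using fun u : G => exists_gen H u
  refine ⟨(S ×ˢ T).image (fun p => v (p.2⁻¹ * p.1 * p.2)), ?_⟩
  intro h
  obtain ⟨s, hs, n, hconj⟩ := hS (h : G)
  obtain ⟨c, hc⟩ := isConj_iff.mp hconj
  -- c * h * c⁻¹ = s ^ n ; write c = r * y⁻¹ ... with r a coset representative
  obtain ⟨y, hy⟩ := QuotientGroup.mk_out_eq_mul H c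
  set r : G := (QuotientGroup.mk c : G ⧸ H).out with hr
  have hrT : r ∈ T := by
    rw [hT]; exact Finset.mem_image_of_mem _ (Finset.mem_univ _)
  set u : G := r⁻¹ * s * r with hu
  have hun : u ^ n = (y : G)⁻¹ * h * y := by
    have h1 : u ^ n = r⁻¹ * s ^ n * r := by
      have := conj_zpow (a := r⁻¹) (b := s) (i := n)
      simpa [hu] using this
    rw [h1, ← hc, hy]
    group
  have hmem : u ^ n ∈ H := by
    rw [hun]
    exact H.mul_mem (H.mul_mem (H.inv_mem y.2) h.2) y.2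
  obtain ⟨m, hm⟩ := hv u n hmem
  refine ⟨v u, Finset.mem_image.mpr ⟨(s, r), Finset.mem_product.mpr ⟨hs, hrT⟩, rfl⟩, m, ?_⟩
  rw [isConj_iff]
  refine ⟨y⁻¹, ?_⟩
  apply Subtype.ext
  push_cast
  rw [← hm, hun]
  simp

/-- Main theorem, virtual form. -/
theorem main {G : Type*} [Group G] (H : Subgroup G) [H.FiniteIndex]
    (φ : H →* Multiplicative ℤ) (hφ : Surjective φ) (K : Subgroup H) [K.FiniteIndex]
    (hK : ¬ φ.ker ≤ K) (S : Finset G) :
    ∃ g : G, ∀ s ∈ S, ∀ n : ℤ, ¬ IsConj g (s ^ n) := by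
  by_contra hcon
  push Not at hcon
  obtain ⟨S', hS'⟩ := descend H S hcon
  obtain ⟨t, ht⟩ := hφ (Multiplicative.ofAdd 1)
  obtain ⟨f, hfker, hfK⟩ := SetLike.not_le_iff_exists.mp hK
  have hfK' : f ∉ K.normalCore := fun h => hfK (K.normalCore_le h)
  obtain ⟨g, hg⟩ := core φ t ht K.normalCore f (MonoidHom.mem_ker.mp hfker) hfK' S'
  obtain ⟨s, hs, n, hc⟩ := hS' g
  exact hg s hs n hc

/-- Residually finite form: a residually finite group covered by the conjugates of the cyclic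
subgroups generated by finitely many elements, having a finite-index subgroup `H` that maps onto
`ℤ`, has `H ≅ ℤ`. -/
theorem main_rf {G : Type*} [Group G] [Group.ResiduallyFinite G] (S : Finset G)
    (hS : ∀ g : G, ∃ s ∈ S, ∃ n : ℤ, IsConj g (s ^ n))
    (H : Subgroup G) [H.FiniteIndex] (φ : H →* Multiplicative ℤ) (hφ : Surjective φ) :
    Bijective φ := by
  refine ⟨?_, hφ⟩
  rw [injective_iff_map_eq_one]
  intro f hf
  by_contra hne
  have hne' : (f : G) ≠ 1 := fun h => hne (Subtype.ext h)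
  obtain ⟨K, hKfin, hfK⟩ := Group.residuallyFinite_iff_exists_finiteIndex.mp inferInstance (f : G) hne'
  have : (K.subgroupOf H).FiniteIndex := inferInstance
  have hK : ¬ φ.ker ≤ K.subgroupOf H := by
    intro hle
    exact hfK (Subgroup.mem_subgroupOf.mp (hle (MonoidHom.mem_ker.mpr hf)))
  obtain ⟨g, hg⟩ := main H φ hφ (K.subgroupOf H) hK S
  obtain ⟨s, hs, n, hc⟩ := hS g
  exact hg s hs n hc

end Vale.Agent.P216
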